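import Crest.Agent.R241.Trig
import Crest.Prelude.Def_Submanifold

/-!
# Row 241, block I (owner helper57): definitions.

Everything is EXTRINSIC (no atlas, no Christoffel symbols, no curvature tensor).
`P x` is a smooth field of symmetric operators on `ℝ^N` which at points of `S` is the orthogonal
projection on the tangent space; `II P x u v = (D P)_x(u) v` is the second fundamental form;
geodesics are curves `c` in `S` with `P (c t) c'' = 0`; `NC` = normal coordinates `exp_p ∘ ι`;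
`GC` = normal coordinates that are a global chart of `S` (inverse `G`) with the Rauch bound.
The intrinsic distance is `‖G x y‖`.
-/

open Set Filter Topology
open Crest.GeometryTopology.Submanifold
open scoped ContDiff InnerProductSpace

noncomputable section

namespace Crest.Agent.R241.RG

variable {d N : ℕ}

/-- smooth field of tangent projections -/
structure TP (d : ℕ) (S : Set (Euc N)) (P : Euc N → Euc N →L[ℝ] Euc N) : Prop where
  sub : IsSubmanifold d N S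
  smooth : ContDiff ℝ ∞ P
  symm : ∀ x u v, ⟪P x u, v⟫_ℝ = ⟪u, P x v⟫_ℝ
  fix : ∀ p f V, IsLocalParam d N S p f V → ∀ u ∈ V, ∀ w, P (f u) (fderiv ℝ f u w) = fderiv ℝ f u w
  rng : ∀ p f V, IsLocalParam d N S p f V → ∀ u ∈ V, ∀ z, ∃ w, P (f u) z = fderiv ℝ f u w

/-- the second fundamental form (on tangent vectors `u v` at `x ∈ S`) -/
def II (P : Euc N → Euc N →L[ℝ] Euc N) (x u v : Euc N) : Euc N := fderiv ℝ P x u v

/-- sectional curvature `≤ -σ`, through the Gauss equation -/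
def Sec (σ : ℝ) (S : Set (Euc N)) (P : Euc N → Euc N →L[ℝ] Euc N) : Prop :=
  ∀ x ∈ S, ∀ u v, P x u = u → P x v = v →
    ⟪II P x u u, II P x v v⟫_ℝ - ‖II P x u v‖ ^ 2 ≤ -σ * (‖u‖ ^ 2 * ‖v‖ ^ 2 - ⟪u, v⟫_ℝ ^ 2)

/-- complete geodesics of `S` -/
structure IsGeod (S : Set (Euc N)) (P : Euc N → Euc N →L[ℝ] Euc N) (c : ℝ → Euc N) : Prop where
  smooth : ContDiff ℝ ∞ c
  mem : ∀ t, c t ∈ S
  eq : ∀ t, P (c t) (deriv (deriv c) t) = 0

/-- normal coordinates `F = exp_p ∘ ι` -/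
structure NC (S : Set (Euc N)) (P : Euc N → Euc N →L[ℝ] Euc N) (p : Euc N)
    (F : Euc d → Euc N) : Prop where
  smooth : ContDiff ℝ ∞ F
  zero : F 0 = p
  geod : ∀ v, IsGeod S P fun t => F (t • v)
  iso : ∀ v, ‖fderiv ℝ F 0 v‖ = ‖v‖
  uniq : ∀ c, IsGeod S P c → c 0 = p → ∃ v, ∀ t, c t = F (t • v)

/-- `sn r / r` -/
def sr (σ r : ℝ) : ℝ := if r = 0 then 1 else sn σ r / r

/-- the model metric in normal coordinates -/
def gm (σ : ℝ) (v u : Euc d) : ℝ :=
  ⟪u, v⟫_ℝ ^ 2 / ‖v‖ ^ 2 + sr σ ‖v‖ ^ 2 * (‖u‖ ^ 2 - ⟪u, v⟫_ℝ ^ 2 / ‖v‖ ^ 2)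

/-- `md` of the model distance in normal coordinates (law of cosines) -/
def Phi (σ : ℝ) (v w : Euc d) : ℝ :=
  md σ ‖v‖ + md σ ‖w‖ + σ * md σ ‖v‖ * md σ ‖w‖ - sr σ ‖v‖ * sr σ ‖w‖ * ⟪v, w⟫_ℝ

/-- global normal coordinates with inverse `G` and the Gauss–Rauch bound -/
structure GC (σ : ℝ) (S : Set (Euc N)) (P : Euc N → Euc N →L[ℝ] Euc N) (p : Euc N)
    (F : Euc d → Euc N) (G : Euc N → Euc d) : Prop where
  nc : NC S P p F
  speed : ∀ (t : ℝ) v, ‖fderiv ℝ F (t • v) v‖ = ‖v‖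
  rauch : ∀ v u, gm σ v u ≤ ‖fderiv ℝ F v u‖ ^ 2
  expand : ∀ v u, ‖u‖ ≤ ‖fderiv ℝ F v u‖
  left : ∀ v, G (F v) = v
  right : ∀ x ∈ S, F (G x) = x
  cont : ContinuousOn G S

/-- global normal coordinates at every point -/
def Atl (σ : ℝ) (S : Set (Euc N)) (P : Euc N → Euc N →L[ℝ] Euc N)
    (F : Euc N → Euc d → Euc N) (G : Euc N → Euc N → Euc d) : Prop :=
  ∀ p ∈ S, GC σ S P p (F p) (G p)

theorem NC.mem {S : Set (Euc N)} {P : Euc N → Euc N →L[ℝ] Euc N} {p : Euc N}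
    {F : Euc d → Euc N} (h : NC S P p F) (v : Euc d) : F v ∈ S := by
  simpa using (h.geod v).mem 1

end Crest.Agent.R241.RG
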