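import Crest.Agent.R241.Geo.Defs

/-! # Row 241, block I: scalar comparison lemmas and the model space -/

open Set Filter Topology
open Crest.GeometryTopology.Submanifold
open scoped ContDiff InnerProductSpace

noncomputable section

namespace Crest.Agent.R241.RG

variable {d N : ℕ} {σ : ℝ} {S : Set (Euc N)} {P : Euc N → Euc N →L[ℝ] Euc N} {p : Euc N}

theorem moda_mono {f : ℝ → ℝ} (h : ∀ x, 0 < x → ∃ f', HasDerivAt f f' x ∧ 0 ≤ f') :
    MonotoneOn f (Ioi 0) := by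
  choose! f' h1 h2 using h
  refine monotoneOn_of_hasDerivWithinAt_nonneg (f' := f') (convex_Ioi 0)
    (fun x hx => (h1 x hx).continuousAt.continuousWithinAt) ?_ ?_ <;> rw [interior_Ioi]
  exacts [fun x hx => (h1 x hx).hasDerivWithinAt, h2]

theorem moda_lim {h : ℝ → ℝ} (hc : Continuous h) {t A : ℝ} (ht : 0 < t)
    (H : ∀ τ ∈ Ioo 0 t, h τ ≤ A) : h 0 ≤ A :=
  le_of_tendsto ((hc.tendsto 0).mono_left (nhdsWithin_le_nhds (s := Ioi 0)))
    (mem_of_superset (Ioo_mem_nhdsGT ht) H)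

/-- Scalar Rauch comparison.  Recipe: trivial if `y 0 = 0`.  Else `g₂ ≥ 0`, `g₁ 0 = 0`, so `g` is
monotone on `[0, ∞)` and positive on `(0, ∞)` (`y > 0` near `0`).  `φ = √g` has `φ' = g₁ / (2 φ)`,
`|φ'| ≤ √q`, `φ'' ≥ k φ` on `(0, ∞)`; `W = φ' sn - φ (1 + k md)` is monotone on `(0, ∞)` and tends
to `0` at `0⁺`, so `W ≥ 0`, `φ / sn` is monotone, and `φ t / sn t = √(y t) t / sn t → √(y 0)`. -/
theorem rauch_ode {k : ℝ} (hk : 0 ≤ k) {g g₁ g₂ q y : ℝ → ℝ} (hg : ∀ t, HasDerivAt g (g₁ t) t)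
    (hg₁ : ∀ t, HasDerivAt g₁ (g₂ t) t) (hq : Continuous q) (hq0 : ∀ t, 0 ≤ q t)
    (hy : Continuous y) (hy0 : ∀ t, 0 ≤ y t) (hgy : ∀ t, g t = t ^ 2 * y t)
    (h1 : ∀ t, g₁ t ^ 2 ≤ 4 * g t * q t) (h2 : ∀ t, 2 * q t + 2 * k * g t ≤ g₂ t) {t : ℝ}
    (ht : 0 ≤ t) : sn k t ^ 2 * y 0 ≤ g t := by
  have hg0 : ∀ t, 0 ≤ g t := fun t => by rw [hgy]; exact mul_nonneg (sq_nonneg _) (hy0 t)
  rcases ht.eq_or_lt with rfl | ht
  · simpa using hg0 0
  rcases (hy0 0).eq_or_lt with h0 | h0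
  · rw [← h0, mul_zero]
    exact hg0 t
  have hgc : Continuous g := continuous_iff_continuousAt.2 fun t => (hg t).continuousAt
  have g10 : g₁ 0 = 0 := by
    have := h1 0
    rw [hgy 0] at this
    nlinarith [sq_nonneg (g₁ 0)]
  have m1 : Monotone g₁ := monotone_of_hasDerivAt_nonneg hg₁ fun t => by
    have := h2 t
    have := mul_nonneg hk (hg0 t)
    have := hq0 t
    simp only [Pi.zero_apply]
    linarith
  have m2 : MonotoneOn g (Ioi 0) := moda_mono fun x hx => ⟨_, hg x, g10 ▸ m1 hx.le⟩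
  have gp : ∀ t, 0 < t → 0 < g t := fun t ht => by
    obtain ⟨τ, hτ1, hτ2⟩ := (((hy.tendsto 0).eventually (lt_mem_nhds h0)).filter_mono
      (nhdsWithin_le_nhds (s := Ioi 0))).and (Ioo_mem_nhdsGT ht) |>.exists
    refine lt_of_lt_of_le ?_ (m2 hτ2.1 ht hτ2.2.le)
    rw [hgy]
    exact mul_pos (pow_pos hτ2.1 2) hτ1
  have hc : ∀ t, HasDerivAt (fun t => 1 + k * md k t) (k * sn k t) t := fun t =>
    ((hasDerivAt_md hk t).const_mul k).const_add 1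
  have c1 : ∀ t, 1 ≤ 1 + k * md k t := fun t => le_add_of_nonneg_right (mul_nonneg hk (md_nonneg hk t))
  have m3 : MonotoneOn (fun t => (g₁ t * sn k t - 2 * g t * (1 + k * md k t)) / √(g t)) (Ioi 0) := by
    refine moda_mono fun x hx => ⟨_, (((hg₁ x).mul (hasDerivAt_sn hk x)).sub
      (((hg x).const_mul 2).mul (hc x))).div ((hg x).sqrt (gp x hx).ne') (Real.sqrt_pos.2 (gp x hx)).ne', ?_⟩
    refine div_nonneg ?_ (sq_nonneg _)
    have hr := Real.sqrt_pos.2 (gp x hx)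
    have hs := sn_pos hk hx
    have e := Real.mul_self_sqrt (hg0 x)
    simp only [Pi.mul_apply, Pi.sub_apply]
    rw [sub_nonneg, mul_div_assoc', div_le_iff₀ (by positivity), mul_assoc _ (√(g x)), mul_left_comm (√(g x)), e]
    nlinarith [mul_le_mul_of_nonneg_left (h1 x) hs.le,
      mul_le_mul_of_nonneg_left (h2 x) (mul_nonneg hs.le (hg0 x))]
  have w0 : ∀ t, 0 < t → 0 ≤ g₁ t * sn k t - 2 * g t * (1 + k * md k t) := fun t ht => by
    have hr := Real.sqrt_pos.2 (gp t ht)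
    have hmd := continuous_md k
    have h3 := moda_lim (h := fun τ => -(2 * √(g τ) * (1 + k * md k τ))) (by fun_prop) ht fun τ hτ => by
      refine le_trans ?_ (m3 hτ.1 ht hτ.2.le)
      have hr := Real.sqrt_pos.2 (gp τ hτ.1)
      have e := Real.mul_self_sqrt (hg0 τ)
      have h4 : 0 ≤ g₁ τ * sn k τ := mul_nonneg (g10 ▸ m1 hτ.1.le) (sn_nonneg hk hτ.1.le)
      rw [le_div_iff₀ hr]
      have h5 : -(2 * √(g τ) * (1 + k * md k τ)) * √(g τ) = -(2 * g τ * (1 + k * md k τ)) := by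
        linear_combination (-2 * (1 + k * md k τ)) * e
      linarith
    simp only [hgy 0, ne_eq, OfNat.ofNat_ne_zero, not_false_eq_true, zero_pow, zero_mul, Real.sqrt_zero,
      mul_zero, neg_zero] at h3
    exact (div_nonneg_iff.1 h3).elim (fun h => h.1) fun h => absurd h.2 (not_le.2 hr)
  have m4 : MonotoneOn (fun t => g t / sn k t ^ 2) (Ioi 0) := by
    refine moda_mono fun x hx => ⟨_, (hg x).div ((hasDerivAt_sn hk x).pow 2)
      (pow_pos (sn_pos hk hx) 2).ne', div_nonneg ?_ (sq_nonneg _)⟩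
    have := mul_nonneg (w0 x hx) (sn_pos hk hx).le
    norm_num
    nlinarith
  have hmd := continuous_md k
  have h5 := moda_lim (h := fun τ => y τ / (1 + k * md k τ) ^ 2)
    (hy.div (by fun_prop) fun τ => (pow_pos (one_pos.trans_le (c1 τ)) 2).ne') ht fun τ hτ => by
      refine le_trans ?_ (m4 hτ.1 ht hτ.2.le)
      have hs := sn_pos hk hτ.1
      rw [div_le_div_iff₀ (pow_pos (one_pos.trans_le (c1 τ)) 2) (pow_pos hs 2), hgy, mul_right_comm,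
        ← mul_pow, mul_comm]
      exact mul_le_mul_of_nonneg_right (pow_le_pow_left₀ hs.le (sn_le hk hτ.1.le) 2) (hy0 τ)
  simp only [md_zero, mul_zero, add_zero, one_pow, div_one] at h5
  rwa [le_div_iff₀ (pow_pos (sn_pos hk ht) 2), mul_comm] at h5

/-- Recipe: barrier `B t = md ((ℓ + ε) t + ε)`, `image_le_of_deriv_right_lt_deriv_boundary`
(`sn_sq`: at a contact point `ψ' ≤ ℓ sn < (ℓ + ε) sn = B'`), then `ε → 0`. -/
theorem md_ode (hσ : 0 ≤ σ) {ψ ψ' : ℝ → ℝ} {l : ℝ} (hl : 0 ≤ l)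
    (hψ : ∀ t, HasDerivAt ψ (ψ' t) t) (h0 : ψ 0 = 0)
    (hb : ∀ t ∈ Icc (0 : ℝ) 1, ψ' t ^ 2 ≤ (2 * ψ t + σ * ψ t ^ 2) * l ^ 2) : ψ 1 ≤ md σ l := by
  have hmd := continuous_md σ
  have h := moda_lim (h := fun ε => -md σ ((l + ε) * 1 + ε)) (A := -ψ 1) (by fun_prop) one_pos fun ε hε => by
    refine neg_le_neg (image_le_of_deriv_right_lt_deriv_boundary (f' := ψ')
      (B := fun t => md σ ((l + ε) * t + ε)) (B' := fun t => sn σ ((l + ε) * t + ε) * (l + ε))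
      (fun t _ => (hψ t).continuousAt.continuousWithinAt) (fun t _ => (hψ t).hasDerivWithinAt)
      (h0.le.trans (md_nonneg hσ _)) (fun t => ?_) (fun t ht he => ?_) (right_mem_Icc.2 zero_le_one))
    · simpa using! (hasDerivAt_md hσ ((l + ε) * t + ε)).comp t
        (((hasDerivAt_id t).const_mul (l + ε)).add_const ε)
    · have hs : 0 < sn σ ((l + ε) * t + ε) :=
        sn_pos hσ (add_pos_of_nonneg_of_pos (mul_nonneg (add_nonneg hl hε.1.le) ht.1) hε.1)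
      have h1 := hb t (Ico_subset_Icc_self ht)
      rw [he, ← sn_sq hσ, ← mul_pow] at h1
      exact (le_abs_self _).trans_lt ((abs_le_of_sq_le_sq h1 (mul_nonneg hs.le hl)).trans_lt
        (mul_lt_mul_of_pos_left (lt_add_of_pos_right _ hε.1) hs))
  simpa using h

theorem sr_mul (σ r : ℝ) : sr σ r * r = sn σ r := by
  unfold sr
  split_ifs with h
  · simp [h]
  · exact div_mul_cancel₀ _ h

theorem one_le_sr (hσ : 0 ≤ σ) {r : ℝ} (hr : 0 ≤ r) : 1 ≤ sr σ r := by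
  unfold sr
  split_ifs with h
  · exact le_rfl
  · exact (one_le_div (hr.lt_of_ne' h)).2 (le_sn hσ hr)

/-- Cauchy–Schwarz and `one_le_sr` -/
theorem sq_le_gm (hσ : 0 ≤ σ) (v u : Euc d) : ‖u‖ ^ 2 ≤ gm σ v u := by
  have h1 : ⟪u, v⟫_ℝ ^ 2 / ‖v‖ ^ 2 ≤ ‖u‖ ^ 2 := by
    refine div_le_of_le_mul₀ (sq_nonneg _) (sq_nonneg _) ?_
    rw [← mul_pow, ← sq_abs]
    exact pow_le_pow_left₀ (abs_nonneg _) (abs_real_inner_le_norm u v) 2
  have h2 : 1 ≤ sr σ ‖v‖ ^ 2 := one_le_pow₀ (one_le_sr hσ (norm_nonneg _))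
  have h3 := mul_le_mul_of_nonneg_right h2 (sub_nonneg.2 h1)
  rw [gm]
  linarith

/-- `sr_mul`, `sn_sq` -/
theorem Phi_self (hσ : 0 ≤ σ) (w : Euc d) : Phi σ w w = 0 := by
  rw [Phi, real_inner_self_eq_norm_sq]
  linear_combination -sn_sq hσ ‖w‖ - (sr σ ‖w‖ * ‖w‖ + sn σ ‖w‖) * sr_mul σ ‖w‖

/-- Cauchy–Schwarz on the tangent space of the hyperboloid.  Recipe: the form
`Q ((X, x), (Y, y)) = ⟪X, Y⟫ - σ x y` is positive semidefinite on
`H = {(X, x) | ⟪A, X⟫ = (1 + σ a) x}` (`(1+σ a)² x² ≤ ‖A‖² ‖X‖²`, `σ ‖A‖² = (1+σ a)² - 1`);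
`Z = (B - λ A, b - λ a - Φ) ∈ H` with `λ = 1 + σ Φ`, `Q (Z, Z) = 2Φ + σΦ²`,
`Q (Z, (U, s)) = ⟪B, U⟫ - (1 + σ b) s`; `discrim_le_zero` for `t ↦ Q (Z + t (U,s), Z + t (U,s))`. -/
theorem lorentz_cs (hσ : 0 ≤ σ) {A B U : Euc d} {a b s Φ : ℝ} (ha : 0 ≤ a)
    (hA : ‖A‖ ^ 2 = 2 * a + σ * a ^ 2) (hB : ‖B‖ ^ 2 = 2 * b + σ * b ^ 2)
    (hU : ⟪A, U⟫_ℝ = (1 + σ * a) * s) (hΦ : Φ = a + b + σ * a * b - ⟪A, B⟫_ℝ) :
    ((1 + σ * b) * s - ⟪U, B⟫_ℝ) ^ 2 ≤ (2 * Φ + σ * Φ ^ 2) * (‖U‖ ^ 2 - σ * s ^ 2) := by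
  have psd : ∀ (X : Euc d) (x : ℝ), ⟪A, X⟫_ℝ = (1 + σ * a) * x → 0 ≤ ‖X‖ ^ 2 - σ * x ^ 2 := by
    intro X x hX
    have h1 := pow_le_pow_left₀ (abs_nonneg _) (abs_real_inner_le_norm A X) 2
    rw [sq_abs, hX, mul_pow, mul_pow, hA] at h1
    have h2 : 0 < (1 + σ * a) ^ 2 := by positivity
    refine nonneg_of_mul_nonneg_right ?_ h2
    nlinarith [mul_le_mul_of_nonneg_left h1 hσ, sq_nonneg ‖X‖]
  have key : ∀ t : ℝ, 0 ≤ (‖U‖ ^ 2 - σ * s ^ 2) * (t * t)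
      + 2 * (⟪U, B⟫_ℝ - (1 + σ * b) * s) * t + (2 * Φ + σ * Φ ^ 2) := by
    intro t
    have h1 := psd (B - (1 + σ * Φ) • A + t • U) (b - (1 + σ * Φ) * a - Φ + t * s) (by
      rw [inner_add_right, inner_sub_right, inner_smul_right, inner_smul_right, hU,
        real_inner_self_eq_norm_sq, hA]
      linear_combination hΦ)
    rw [norm_add_sq_real, norm_sub_sq_real, inner_sub_left, inner_smul_right, inner_smul_right,
      inner_smul_right, inner_smul_left, norm_smul, norm_smul, mul_pow, mul_pow, Real.norm_eq_abs,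
      Real.norm_eq_abs, sq_abs, sq_abs, hA, hB, hU, real_inner_comm A B, real_inner_comm U B,
      show ⟪A, B⟫_ℝ = a + b + σ * a * b - Φ by linarith, conj_trivial] at h1
    refine h1.trans_eq ?_
    ring
  have := discrim_le_zero key
  rw [discrim] at this
  linarith

theorem modc_sr (hσ : 0 ≤ σ) : Tendsto (sr σ) (𝓝 0) (𝓝 1) := by
  have h : sr σ = dslope (sn σ) 0 := by
    funext r
    by_cases hr : r = 0
    · subst hr
      rw [dslope_same, (hasDerivAt_sn hσ 0).deriv]; simp [sr]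
    · rw [dslope_of_ne _ hr, slope_def_field]; simp [sr, hr]
  have h2 := continuousAt_dslope_same.2 (hasDerivAt_sn hσ 0).differentiableAt
  rw [← h] at h2
  simpa [sr] using h2.tendsto

theorem modc_norm {v : Euc d} (hv : v ≠ 0) :
    HasFDerivAt (fun v : Euc d => ‖v‖) (‖v‖⁻¹ • innerSL ℝ v) v := by
  have h0 : ‖v‖ ≠ 0 := norm_ne_zero_iff.2 hv
  have h := (hasStrictFDerivAt_norm_sq v).hasFDerivAt.sqrt (pow_ne_zero 2 h0)
  simp only [Real.sqrt_sq (norm_nonneg _)] at h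
  refine h.congr_fderiv ?_
  ext u
  simp
  field_simp

theorem modc_dsr (hσ : 0 ≤ σ) {r : ℝ} (hr : r ≠ 0) :
    HasDerivAt (sr σ) (((1 + σ * md σ r) * r - sn σ r) / r ^ 2) r := by
  refine (((hasDerivAt_sn hσ r).div (hasDerivAt_id' r) hr).congr_deriv (by ring)).congr_of_eventuallyEq ?_
  filter_upwards [eventually_ne_nhds hr] with x hx
  exact if_neg hx

/-- The hyperboloid embedding `v ↦ (sr ‖v‖ • v, md ‖v‖)` pulls the Lorentz form back to `gm`.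
Recipe: `v ≠ 0`: chain rule (`HasFDerivAt.norm`-type lemmas: `hasStrictFDerivAt_norm_sq`, `.sqrt`),
with `r = ‖v‖`, `ρ = ⟪u,v⟫/r`: `da u = sn r ρ`, `dA u = sr u + (cs - sr) (ρ / r) v`, `sn_sq`.
`v = 0`: `dA = id`, `da = 0` (`sr σ r → 1` from `hasDerivAt_sn`, `md σ r / r → 0`). -/
theorem exists_fderiv_model (hσ : 0 ≤ σ) (v : Euc d) :
    ∃ (dA : Euc d →L[ℝ] Euc d) (da : Euc d →L[ℝ] ℝ),
      HasFDerivAt (fun v : Euc d => sr σ ‖v‖ • v) dA v ∧
      HasFDerivAt (fun v : Euc d => md σ ‖v‖) da v ∧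
      ∀ u, ⟪sr σ ‖v‖ • v, dA u⟫_ℝ = (1 + σ * md σ ‖v‖) * da u ∧
        ‖dA u‖ ^ 2 - σ * da u ^ 2 = gm σ v u := by
  by_cases hv : v = 0
  · subst hv
    have hn : Tendsto (fun v : Euc d => ‖v‖) (𝓝 0) (𝓝 0) := tendsto_norm_zero
    refine ⟨ContinuousLinearMap.id ℝ _, 0, ?_, ?_, fun u => by simp [gm, sr]⟩
    · rw [hasFDerivAt_iff_isLittleO_nhds_zero]
      have h1 : Tendsto (fun v : Euc d => sr σ ‖v‖ - 1) (𝓝 0) (𝓝 0) := by
        simpa using ((modc_sr hσ).comp hn).sub_const 1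
      have h2 := ((Asymptotics.isLittleO_one_iff ℝ).2 h1).smul_isBigO
        (Asymptotics.isBigO_refl (fun v : Euc d => v) (𝓝 0))
      simpa [sub_smul] using h2
    · rw [hasFDerivAt_iff_isLittleO_nhds_zero]
      have h1 := (hasDerivAt_iff_isLittleO_nhds_zero.1 (hasDerivAt_md hσ 0)).comp_tendsto hn
      have h2 : (fun x : Euc d => md σ ‖x‖) =o[𝓝 0] fun v => ‖v‖ := by
        simpa [Function.comp_def] using h1
      simpa using h2.of_norm_right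
  · have h0 : ‖v‖ ≠ 0 := norm_ne_zero_iff.2 hv
    have hn := modc_norm hv
    refine ⟨_, _, ((modc_dsr hσ h0).comp_hasFDerivAt v hn).smul (hasFDerivAt_id v),
      (hasDerivAt_md hσ ‖v‖).comp_hasFDerivAt v hn, fun u => ?_⟩
    have hs : sr σ ‖v‖ = sn σ ‖v‖ / ‖v‖ := if_neg h0
    have hq := sn_sq hσ ‖v‖
    simp only [add_apply, smul_apply,
      ContinuousLinearMap.smulRight_apply, ContinuousLinearMap.id_apply, innerSL_apply_apply,
      Function.comp_apply, smul_eq_mul, gm, norm_add_sq_real, inner_add_right, inner_smul_left,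
      inner_smul_right, norm_smul, mul_pow, Real.norm_eq_abs, sq_abs, real_inner_self_eq_norm_sq,
      conj_trivial, hs, real_inner_comm v u]
    generalize sn σ ‖v‖ = S at hq ⊢
    generalize md σ ‖v‖ = m at hq ⊢
    generalize ‖v‖ = r at h0 ⊢
    refine ⟨by field_simp; ring, ?_⟩
    field_simp
    linear_combination (-σ * ⟪v, u⟫_ℝ ^ 2 * r ^ 2) * hq

/-- `exists_fderiv_model` and `lorentz_cs` with `A = sr ‖v‖ • v`, `B = sr ‖w‖ • w` -/
theorem exists_fderiv_Phi (hσ : 0 ≤ σ) (v w : Euc d) :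
    ∃ L : Euc d →L[ℝ] ℝ, HasFDerivAt (fun v => Phi σ v w) L v ∧
      0 ≤ 2 * Phi σ v w + σ * Phi σ v w ^ 2 ∧
      ∀ u, L u ^ 2 ≤ (2 * Phi σ v w + σ * Phi σ v w ^ 2) * gm σ v u := by
  obtain ⟨dA, da, h1, h2, h3⟩ := exists_fderiv_model hσ v
  have hn : ∀ z : Euc d, ‖sr σ ‖z‖ • z‖ ^ 2 = 2 * md σ ‖z‖ + σ * md σ ‖z‖ ^ 2 := fun z => by
    rw [norm_smul, Real.norm_of_nonneg (zero_le_one.trans (one_le_sr hσ (norm_nonneg _))), sr_mul,
      sn_sq hσ]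
  have hP : ∀ z : Euc d, Phi σ z w = md σ ‖z‖ + md σ ‖w‖ + σ * md σ ‖z‖ * md σ ‖w‖
      - ⟪sr σ ‖z‖ • z, sr σ ‖w‖ • w⟫_ℝ := fun z => by
    rw [Phi, inner_smul_left, inner_smul_right, conj_trivial, mul_assoc (sr σ ‖z‖)]
  have h4 := (((h2.add_const (md σ ‖w‖)).add ((h2.const_mul σ).mul_const (md σ ‖w‖))).sub
    (h1.inner ℝ (hasFDerivAt_const (sr σ ‖w‖ • w) v))).congr_of_eventuallyEq
      (f₁ := fun z => Phi σ z w) (Eventually.of_forall hP)
  have h5 : 0 ≤ Phi σ v w := by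
    have h6 := md_nonneg hσ (‖v‖ - ‖w‖)
    have h7 := mul_le_mul_of_nonneg_left (real_inner_le_norm v w) (mul_nonneg
      (zero_le_one.trans (one_le_sr hσ (norm_nonneg v)))
      (zero_le_one.trans (one_le_sr hσ (norm_nonneg w))))
    rw [md_sub hσ, ← sr_mul, ← sr_mul] at h6
    rw [Phi]
    linarith
  refine ⟨_, h4, by positivity, fun u => ?_⟩
  rw [← (h3 u).2]
  refine le_of_eq_of_le ?_ (lorentz_cs hσ (md_nonneg hσ _) (hn v) (hn w) (h3 u).1 (hP v))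
  congr 1
  simp
  ring

end Crest.Agent.R241.RG
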