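import Crest.Agent.R241.Geo.Sub

/-! # Row 241, block I: the tangent projection field and the second fundamental form -/

open Set Filter Topology
open Crest.GeometryTopology.Submanifold
open scoped ContDiff InnerProductSpace

noncomputable section

namespace Crest.Agent.R241.RG

variable {d N : ℕ} {σ : ℝ} {S : Set (Euc N)} {P : Euc N → Euc N →L[ℝ] Euc N} {p : Euc N}

variable {f : Euc d → Euc N} {V : Set (Euc d)}

/-- Recipe: `exists_contMDiffMap_forall_mem_convex_of_local` (model `𝓘(ℝ, Euc N)`) with the convex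
sets `t x = {A | (∀ u v, ⟪A u, v⟫ = ⟪u, A v⟫) ∧ ∀ p f V, IsLocalParam d N S p f V → ∀ u ∈ V, f u = x →
(∀ w, A (fderiv f u w) = fderiv f u w) ∧ ∀ z, ∃ w, A z = fderiv f u w}`.  Off `S` (open) take `0`
(`param_mem`).  Near `p ∈ S`: `f, V`, `r, U` from `param_retr`, `L x = fderiv f (r x)`, `M` from
`exists_pinv`, `A x = L x ∘L M x`; ranges of two parametrisations at the same point agree by
`param_tangent` (applied both ways). -/
theorem exists_TP (hS : IsSubmanifold d N S) (hcl : IsClosed S) :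
    ∃ P : Euc N → Euc N →L[ℝ] Euc N, TP d S P := by
  obtain ⟨g, hg⟩ := exists_contMDiffMap_forall_mem_convex_of_local (n := ⊤)
    (modelWithCornersSelf ℝ (Euc N))
    (t := fun x : Euc N => {A : Euc N →L[ℝ] Euc N | (∀ u v, ⟪A u, v⟫_ℝ = ⟪u, A v⟫_ℝ) ∧
      ∀ p f V, IsLocalParam d N S p f V → ∀ u ∈ V, f u = x →
        (∀ w, A (fderiv ℝ f u w) = fderiv ℝ f u w) ∧ ∀ z, ∃ w, A z = fderiv ℝ f u w})
    (fun x A hA B hB a b _ _ hab => ⟨fun u v => by
        simp only [add_apply, smul_apply, inner_add_left, inner_add_right, inner_smul_left,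
          inner_smul_right, hA.1, hB.1, conj_trivial],
      fun p f V hf u hu hx => ⟨fun w => by
        rw [add_apply, smul_apply, smul_apply, (hA.2 p f V hf u hu hx).1, (hB.2 p f V hf u hu hx).1,
          ← add_smul, hab, one_smul], fun z => by
        obtain ⟨w, hw⟩ := (hA.2 p f V hf u hu hx).2 z
        obtain ⟨w', hw'⟩ := (hB.2 p f V hf u hu hx).2 z
        exact ⟨a • w + b • w', by simp [hw, hw']⟩⟩⟩) (fun p => by
      by_cases hp : p ∈ S
      · obtain ⟨f, V, hf⟩ := hS p hp
        obtain ⟨r, U, hU, hpU, hr, hrV, h1, -⟩ := param_retr hf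
        have hL : ContDiffOn ℝ ∞ (fun x => fderiv ℝ f (r x)) U :=
          (hf.contDiffOn.fderiv_of_isOpen hf.isOpen le_rfl).comp hr hrV
        obtain ⟨M, hM, hM'⟩ := exists_pinv hL fun x hx => hf.injective_fderiv _ (hrV hx)
        refine ⟨U, hU.mem_nhds hpU, fun x => fderiv ℝ f (r x) ∘L M x, (hL.clm_comp hM).contMDiffOn,
          fun x hx => ⟨fun u v => ?_, fun p' f' V' hf' u hu hux => ⟨fun w => ?_, fun z => ?_⟩⟩⟩
        · rw [ContinuousLinearMap.comp_apply, ContinuousLinearMap.comp_apply, ← (hM' x hx).2,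
            real_inner_comm, ← (hM' x hx).2, real_inner_comm]
        · obtain ⟨w', hw'⟩ := param_tangent hf (hrV hx)
            ((param_contDiffAt hf' hu).differentiableAt (by simp)).hasFDerivAt
            (eventually_of_mem (hf'.isOpen.mem_nhds hu) fun _ => param_mem hf')
            (hux.trans (h1 x (hux ▸ param_mem hf' hu) hx).symm) w
          rw [hw', ContinuousLinearMap.comp_apply, (hM' x hx).1]
        · exact param_tangent hf' hu
            ((param_contDiffAt hf (hrV hx)).differentiableAt (by simp)).hasFDerivAt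
            (eventually_of_mem (hf.isOpen.mem_nhds (hrV hx)) fun _ => param_mem hf)
            ((h1 x (hux ▸ param_mem hf' hu) hx).trans hux.symm) _
      · exact ⟨Sᶜ, hcl.isOpen_compl.mem_nhds hp, fun _ => 0, contMDiffOn_const, fun x hx =>
          ⟨by simp, fun p' f' V' hf' u hu hux => absurd (hux ▸ param_mem hf' hu) hx⟩⟩)
  exact ⟨g, hS, g.contMDiff.contDiff, fun x => (hg x).1,
    fun p f V hf u hu => ((hg _).2 p f V hf u hu rfl).1,
    fun p f V hf u hu => ((hg _).2 p f V hf u hu rfl).2⟩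

theorem TP.idem (h : TP d S P) {x : Euc N} (hx : x ∈ S) (z : Euc N) : P x (P x z) = P x z := by
  obtain ⟨f, V, hf⟩ := h.sub x hx
  obtain ⟨w, hw⟩ := h.rng x f V hf 0 hf.zero_mem z
  have := h.fix x f V hf 0 hf.zero_mem w
  rw [hf.map_zero] at hw this
  rw [hw, this]

/-- derivatives of maps into `S` are tangent (`param_tangent`, `fix`) -/
theorem TP.tang {E : Type*} [NormedAddCommGroup E] [NormedSpace ℝ E] (h : TP d S P)
    {g : E → Euc N} {g' : E →L[ℝ] Euc N} {a : E} (hg : HasFDerivAt g g' a)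
    (hS : ∀ᶠ b in 𝓝 a, g b ∈ S) (z : E) : P (g a) (g' z) = g' z := by
  obtain ⟨f, V, hf⟩ := h.sub (g a) hS.self_of_nhds
  obtain ⟨w, hw⟩ := param_tangent hf hf.zero_mem hg hS hf.map_zero.symm z
  have := h.fix _ f V hf 0 hf.zero_mem w
  rw [hf.map_zero] at this
  rw [hw, this]

/-- Gauss formula for a tangent field `W` along `g` (product rule for `b ↦ P (g b) (W b)`) -/
theorem TP.field {E : Type*} [NormedAddCommGroup E] [NormedSpace ℝ E] (h : TP d S P)
    {g W : E → Euc N} {g' W' : E →L[ℝ] Euc N} {a : E} (hg : HasFDerivAt g g' a)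
    (hW : HasFDerivAt W W' a) (hT : ∀ᶠ b in 𝓝 a, P (g b) (W b) = W b) (z : E) :
    W' z = II P (g a) (g' z) (W a) + P (g a) (W' z) := by
  have h1 := (((h.smooth.differentiable (by simp)) (g a)).hasFDerivAt.comp a hg).clm_apply hW
  have h2 := hW.unique (h1.congr_of_eventuallyEq (hT.mono fun b hb => hb.symm))
  have h3 := congrArg (fun A => A z) h2
  simp only [add_apply, ContinuousLinearMap.comp_apply,
    ContinuousLinearMap.flip_apply, Function.comp_apply] at h3
  rw [add_comm]
  exact h3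

/-- `II` in a parametrisation: `TP.field` with `g = f`, `W = fun y => fderiv f y b` -/
theorem TP.hess (h : TP d S P) (hf : IsLocalParam d N S p f V) {u : Euc d} (hu : u ∈ V)
    (a b : Euc d) : II P (f u) (fderiv ℝ f u a) (fderiv ℝ f u b) =
      fderiv ℝ (fderiv ℝ f) u a b - P (f u) (fderiv ℝ (fderiv ℝ f) u a b) := by
  have h1 := param_contDiffAt hf hu
  have h2 := ((h1.fderiv_right (m := ∞) le_rfl).differentiableAt (by simp)).hasFDerivAt.clm_apply
    (hasFDerivAt_const b u)
  have h3 := h.field (h1.differentiableAt (by simp)).hasFDerivAt h2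
    (eventually_of_mem (hf.isOpen.mem_nhds hu) fun y hy => h.fix p f V hf y hy b) a
  simp only [ContinuousLinearMap.comp_zero, zero_add, ContinuousLinearMap.flip_apply] at h3
  exact eq_sub_of_add_eq h3.symm

theorem TP.exists_param (h : TP d S P) {x : Euc N} (hx : x ∈ S) :
    ∃ (f : Euc d → Euc N) (V : Set (Euc d)), IsLocalParam d N S x f V ∧
      (∀ u, P x u = u → ∃ a, u = fderiv ℝ f 0 a) ∧ (∀ a, P x (fderiv ℝ f 0 a) = fderiv ℝ f 0 a) ∧
      ∀ a b, II P x (fderiv ℝ f 0 a) (fderiv ℝ f 0 b) =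
        fderiv ℝ (fderiv ℝ f) 0 a b - P x (fderiv ℝ (fderiv ℝ f) 0 a b) := by
  obtain ⟨f, V, hf⟩ := h.sub x hx
  have h1 := h.rng x f V hf 0 hf.zero_mem
  have h2 := h.fix x f V hf 0 hf.zero_mem
  have h3 := h.hess hf hf.zero_mem
  rw [hf.map_zero] at h1 h2 h3
  exact ⟨f, V, hf, fun u hu => (h1 u).imp fun a ha => hu.symm.trans ha, h2, h3⟩

/-- `II` is normal (`hess` at `0`, `rng`, `idem`) -/
theorem TP.nrm (h : TP d S P) {x u v : Euc N} (hx : x ∈ S) (hu : P x u = u) (hv : P x v = v) :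
    P x (II P x u v) = 0 := by
  obtain ⟨f, V, -, h1, -, h3⟩ := h.exists_param hx
  obtain ⟨a, rfl⟩ := h1 u hu
  obtain ⟨b, rfl⟩ := h1 v hv
  rw [h3, map_sub, h.idem hx, sub_self]

/-- `II` is symmetric (`hess`, `ContDiffAt.isSymmSndFDerivAt`) -/
theorem TP.II_symm (h : TP d S P) {x u v : Euc N} (hx : x ∈ S) (hu : P x u = u)
    (hv : P x v = v) : II P x u v = II P x v u := by
  obtain ⟨f, V, hf, h1, -, h3⟩ := h.exists_param hx
  obtain ⟨a, rfl⟩ := h1 u hu
  obtain ⟨b, rfl⟩ := h1 v hv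
  rw [h3, h3, (((param_contDiffAt hf hf.zero_mem).of_le (m := 2)
    (WithTop.coe_le_coe.2 (le_top : (2 : ℕ∞) ≤ ⊤))).isSymmSndFDerivAt (by simp)).eq a b]

theorem proj_expand {G : Type*} [NormedAddCommGroup G] [NormedSpace ℝ G] (A : Euc d →L[ℝ] G)
    (a : Euc d) : A a = ∑ i, a i • A (stdVec d i) := by
  conv_lhs => rw [← (EuclideanSpace.basisFun (Fin d) ℝ).sum_repr a]
  simp [stdVec]

/-- The Gauss equation.  Recipe: `f, V` at `x`; `u = Df a`, `v = Df b` (`rng`);
`(tangentAt f 0).starProjection = P x` (`Submodule.eq_starProjection_of_mem_of_inner_eq_zero`;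
`tangentAt f 0 = range (fderiv f 0)`), so `sff f 0 i j = II (Df eᵢ) (Df eⱼ)` by `hess`
(`hess f 0 i j = fderiv (fderiv f) 0 eᵢ eⱼ`, `fderiv_clm_apply`); `II` is bilinear, expand
`a = ∑ aᵢ eᵢ`: `secNum f 0 a b = ⟪II u u, II v v⟫ - ⟪II u v, II v u⟫`; `II_symm`. -/
theorem TP.sec (h : TP d S P)
    (hsec : ∀ p ∈ S, ∀ (f : Euc d → Euc N) (V : Set (Euc d)), IsLocalParam d N S p f V →
      ∀ u v : Euc d, secNum f 0 u v ≤ -σ * gramDet f 0 u v) : Sec σ S P := by
  intro x hx u v hu hv
  obtain ⟨f, V, hf, h1, h2, h3⟩ := h.exists_param hx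
  obtain ⟨a, rfl⟩ := h1 u hu
  obtain ⟨b, rfl⟩ := h1 v hv
  have hmem : ∀ a, fderiv ℝ f 0 a ∈ tangentAt f 0 := fun a => by
    rw [proj_expand]
    exact Submodule.sum_mem _ fun i _ => Submodule.smul_mem _ _ (Submodule.subset_span ⟨i, rfl⟩)
  have hP : ∀ z, (tangentAt f 0).starProjection z = P x z := fun z => by
    obtain ⟨w, hw⟩ := h1 _ (h.idem hx z)
    refine Submodule.eq_starProjection_of_mem_of_inner_eq_zero (hw ▸ hmem w) fun y hy => ?_
    have hy' : P x y = y := by
      refine Submodule.span_induction (p := fun y _ => P x y = y) ?_ (map_zero _)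
        (fun y z _ _ h1 h2 => by rw [map_add, h1, h2]) (fun c y _ h1 => by rw [map_smul, h1]) hy
      rintro _ ⟨i, rfl⟩
      exact h2 _
    rw [inner_sub_left, h.symm, hy', sub_self]
  let B : Euc d →L[ℝ] Euc d →L[ℝ] Euc N :=
    (fderiv ℝ P x).bilinearComp (fderiv ℝ f 0) (fderiv ℝ f 0)
  have hB : ∀ a b, II P x (fderiv ℝ f 0 a) (fderiv ℝ f 0 b) = B a b := fun _ _ => rfl
  have hs : ∀ i j, sff f 0 i j = B (stdVec d i) (stdVec d j) := fun i j => by
    have h4 := ((((param_contDiffAt hf hf.zero_mem).fderiv_right (m := ∞) le_rfl).differentiableAt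
      (by simp)).hasFDerivAt.clm_apply (hasFDerivAt_const (stdVec d j) 0)).fderiv
    have h5 : Crest.GeometryTopology.Submanifold.hess f 0 i j = fderiv ℝ (fderiv ℝ f) 0 (stdVec d i) (stdVec d j) := by
      unfold Crest.GeometryTopology.Submanifold.hess pd
      rw [h4]
      simp
    rw [← hB, h3, sff, normalPart, hP, h5]
  have hBe : ∀ a b, B a b = ∑ i, ∑ j, (a i * b j) • B (stdVec d i) (stdVec d j) := fun a b => by
    rw [proj_expand B a, sum_apply]
    refine Finset.sum_congr rfl fun i _ => ?_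
    rw [smul_apply, proj_expand (B (stdVec d i)) b, Finset.smul_sum]
    simp only [smul_smul]
  have key : secNum f 0 a b = ⟪B a a, B b b⟫_ℝ - ⟪B a b, B b a⟫_ℝ := by
    rw [hBe a a, hBe b b, hBe a b, hBe b a]
    simp only [secNum, riem, hs, sum_inner, inner_sum, inner_smul_left, inner_smul_right,
      conj_trivial, mul_sub, Finset.sum_sub_distrib, Finset.mul_sum]
    congr 1
    · refine Finset.sum_comm.trans (Finset.sum_congr rfl fun j _ => Finset.sum_comm.trans ?_)
      refine Finset.sum_congr rfl fun k _ => Finset.sum_congr rfl fun i _ =>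
        Finset.sum_congr rfl fun l _ => by ring
    · refine Finset.sum_comm.trans (Finset.sum_congr rfl fun j _ =>
        (Finset.sum_congr rfl fun i _ => Finset.sum_comm).trans (Finset.sum_comm.trans ?_))
      refine Finset.sum_congr rfl fun k _ => Finset.sum_congr rfl fun i _ =>
        Finset.sum_congr rfl fun l _ => by ring
  have := hsec x hx f V hf a b
  rw [key, gramDet, real_inner_self_eq_norm_sq, real_inner_self_eq_norm_sq, ← hB, ← hB, ← hB, ← hB,
    h.II_symm hx hv hu, real_inner_self_eq_norm_sq] at this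
  exact this

end Crest.Agent.R241.RG
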