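import Crest.Agent.R241.Geo.Defs

/-! # Row 241, block I: local structure of submanifolds -/

open Set Filter Topology
open Crest.GeometryTopology.Submanifold
open scoped ContDiff InnerProductSpace

noncomputable section

namespace Crest.Agent.R241.RG

variable {d N : ℕ} {σ : ℝ} {S : Set (Euc N)} {P : Euc N → Euc N →L[ℝ] Euc N} {p : Euc N}

variable {f : Euc d → Euc N} {V : Set (Euc d)}

theorem param_mem (h : IsLocalParam d N S p f V) {u : Euc d} (hu : u ∈ V) : f u ∈ S := by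
  obtain ⟨U, -, hU⟩ := h.image_open V subset_rfl h.isOpen
  exact (hU.subset ⟨u, hu, rfl⟩).1

theorem param_contDiffAt (h : IsLocalParam d N S p f V) {u : Euc d} (hu : u ∈ V) :
    ContDiffAt ℝ ∞ f u := h.contDiffOn.contDiffAt (h.isOpen.mem_nhds hu)

/-- translating a parametrisation -/
theorem param_shift (h : IsLocalParam d N S p f V) {u : Euc d} (hu : u ∈ V) :
    IsLocalParam d N S (f u) (fun y => f (u + y)) ((fun y => u + y) ⁻¹' V) where
  isOpen := h.isOpen.preimage (by fun_prop)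
  zero_mem := by simpa using hu
  map_zero := by simp
  contDiffOn := h.contDiffOn.comp (by fun_prop) fun _ hy => hy
  injOn := fun a ha b hb hab => add_left_cancel (h.injOn ha hb hab)
  injective_fderiv := fun y hy => by
    rw [fderiv_comp_add_left]
    exact h.injective_fderiv _ hy
  image_open := fun W hW hWo => by
    rw [← image_image f fun y => u + y]
    exact h.image_open _ (image_subset_iff.2 hW) ((Homeomorph.addLeft u).isOpenMap W hWo)

theorem sub_invertible {A : Euc d →L[ℝ] Euc d} (hA : Function.Injective A) : A.IsInvertible :=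
  ⟨(LinearEquiv.ofInjectiveEndo (A : Euc d →ₗ[ℝ] Euc d) hA).toContinuousLinearEquiv, rfl⟩

/-- Smooth Moore–Penrose inverse `M = (L†L)⁻¹ L†` of a smooth family of injective maps -/
theorem exists_pinv {E : Type*} [NormedAddCommGroup E] [NormedSpace ℝ E] {U : Set E}
    {L : E → Euc d →L[ℝ] Euc N} (hL : ContDiffOn ℝ ∞ L U)
    (hinj : ∀ x ∈ U, Function.Injective (L x)) :
    ∃ M : E → Euc N →L[ℝ] Euc d, ContDiffOn ℝ ∞ M U ∧ ∀ x ∈ U, (∀ w, M x (L x w) = w) ∧
      ∀ z w, ⟪L x (M x z), L x w⟫_ℝ = ⟪z, L x w⟫_ℝ := by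
  let T : (Euc d →L[ℝ] Euc N) →ₗ[ℝ] Euc N →L[ℝ] Euc d :=
    { toFun := fun A => ContinuousLinearMap.adjoint A
      map_add' := fun A B => map_add _ A B
      map_smul' := fun c A => by simp }
  have hT : ContDiffOn ℝ ∞ (fun x => ContinuousLinearMap.adjoint (L x)) U :=
    T.toContinuousLinearMap.contDiff.comp_contDiffOn hL
  have hinv : ∀ x ∈ U, (ContinuousLinearMap.adjoint (L x) ∘L L x).IsInvertible := fun x hx =>
    sub_invertible ((injective_iff_map_eq_zero _).2 fun w hw => hinj x hx (by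
      rw [map_zero, ← inner_self_eq_zero (𝕜 := ℝ), ← ContinuousLinearMap.adjoint_inner_right]
      rw [ContinuousLinearMap.comp_apply] at hw
      rw [hw, inner_zero_right]))
  refine ⟨fun x => (ContinuousLinearMap.adjoint (L x) ∘L L x).inverse ∘L
    ContinuousLinearMap.adjoint (L x), fun x hx => ?_, fun x hx => ⟨fun w => ?_, fun z w => ?_⟩⟩
  · exact ((hinv x hx).contDiffAt_map_inverse.comp_contDiffWithinAt x
      ((hT x hx).clm_comp (hL x hx))).clm_comp (hT x hx)
  · exact (hinv x hx).inverse_apply_eq.2 rfl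
  · have := (hinv x hx).inverse_apply_eq.1
      (rfl : (ContinuousLinearMap.adjoint (L x) ∘L L x).inverse
        (ContinuousLinearMap.adjoint (L x) z) = _)
    rw [← ContinuousLinearMap.adjoint_inner_left, ← ContinuousLinearMap.adjoint_inner_left (L x) w z,
      this]
    rfl

/-- Local smooth retraction on the parameter domain. -/
theorem param_retr (h : IsLocalParam d N S p f V) :
    ∃ (r : Euc N → Euc d) (U : Set (Euc N)), IsOpen U ∧ p ∈ U ∧ ContDiffOn ℝ ∞ r U ∧ MapsTo r U V ∧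
      (∀ x ∈ S, x ∈ U → f (r x) = x) ∧ ∀ u ∈ V, f u ∈ U → r (f u) = u := by
  obtain ⟨M', -, hM'⟩ := exists_pinv (U := (univ : Set ℝ)) (L := fun _ => fderiv ℝ f 0)
    contDiffOn_const fun _ _ => h.injective_fderiv 0 h.zero_mem
  obtain ⟨M, hM⟩ : ∃ M : Euc N →L[ℝ] Euc d, ∀ w, M (fderiv ℝ f 0 w) = w := ⟨_, (hM' 0 trivial).1⟩
  have hc : ∀ u ∈ V, ContDiffAt ℝ ∞ (M ∘ f) u := fun u hu =>
    M.contDiff.contDiffAt.comp u (param_contDiffAt h hu)
  have hd : ∀ u ∈ V, HasFDerivAt (M ∘ f) (M ∘L fderiv ℝ f u) u := fun u hu =>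
    M.hasFDerivAt.comp u ((param_contDiffAt h hu).differentiableAt (by simp)).hasFDerivAt
  have h0 : M ∘L fderiv ℝ f 0 = (ContinuousLinearEquiv.refl ℝ (Euc d) : Euc d →L[ℝ] Euc d) :=
    ContinuousLinearMap.ext hM
  let φ := (hc 0 h.zero_mem).toOpenPartialHomeomorph (M ∘ f) (h0 ▸ hd 0 h.zero_mem) (by simp)
  have hφ : (φ : Euc d → Euc d) = M ∘ f := rfl
  have hW : IsOpen (φ.source ∩ (V ∩ (fun u => M ∘L fderiv ℝ f u) ⁻¹'
      range ((↑) : (Euc d ≃L[ℝ] Euc d) → Euc d →L[ℝ] Euc d))) :=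
    φ.open_source.inter ((continuousOn_const.clm_comp (h.contDiffOn.continuousOn_fderiv_of_isOpen
      h.isOpen (by simp))).isOpen_inter_preimage h.isOpen ContinuousLinearEquiv.isOpen)
  have hW0 : (0 : Euc d) ∈ φ.source ∩ (V ∩ (fun u => M ∘L fderiv ℝ f u) ⁻¹'
      range ((↑) : (Euc d ≃L[ℝ] Euc d) → Euc d →L[ℝ] Euc d)) :=
    ⟨ContDiffAt.mem_toOpenPartialHomeomorph_source _ _ _, h.zero_mem, _, h0.symm⟩
  set W := φ.source ∩ (V ∩ (fun u => M ∘L fderiv ℝ f u) ⁻¹'
      range ((↑) : (Euc d ≃L[ℝ] Euc d) → Euc d →L[ℝ] Euc d))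
  obtain ⟨U, hU, hfU⟩ := h.image_open W (fun u hu => hu.2.1) hW
  have hl : ∀ u ∈ W, φ.symm (M (f u)) = u := fun u hu => φ.left_inv hu.1
  refine ⟨φ.symm ∘ M, U ∩ M ⁻¹' (φ '' W), hU.inter ((φ.isOpen_image_of_subset_source hW
    inter_subset_left).preimage M.continuous), ?_, ?_, ?_, fun x hx hxU => ?_, fun u hu huU => ?_⟩
  · exact ⟨(hfU.subset ⟨0, hW0, h.map_zero⟩).2, 0, hW0, by rw [hφ, Function.comp_apply, h.map_zero]⟩
  · rintro x ⟨-, u, hu, hux⟩
    obtain ⟨A, hA⟩ := hu.2.2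
    refine (ContDiffAt.comp x ?_ M.contDiff.contDiffAt).contDiffWithinAt
    rw [← hux]
    refine φ.contDiffAt_symm (f₀' := A) (φ.map_source hu.1) ?_ ?_ <;> rw [φ.left_inv hu.1, hφ]
    · exact hA ▸ hd u hu.2.1
    · exact hc u hu.2.1
  · rintro x ⟨-, u, hu, hux⟩
    rw [Function.comp_apply, ← hux, φ.left_inv hu.1]
    exact hu.2.1
  · obtain ⟨u, hu, rfl⟩ := hfU.superset ⟨hx, hxU.1⟩
    rw [Function.comp_apply, hl u hu]
  · obtain ⟨w, hw, hwu⟩ := hfU.superset ⟨param_mem h hu, huU.1⟩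
    obtain rfl := h.injOn hw.2.1 hu hwu
    exact hl w hw

/-- Derivatives of maps into `S` are tangent. -/
theorem param_tangent {E : Type*} [NormedAddCommGroup E] [NormedSpace ℝ E]
    (h : IsLocalParam d N S p f V) {u : Euc d} (hu : u ∈ V) {g : E → Euc N} {g' : E →L[ℝ] Euc N}
    {a : E} (hg : HasFDerivAt g g' a) (hS : ∀ᶠ b in 𝓝 a, g b ∈ S) (ha : g a = f u) (z : E) :
    ∃ w, g' z = fderiv ℝ f u w := by
  have h' := param_shift h hu
  obtain ⟨r, U, hU, hp, hr, -, h1, h2⟩ := param_retr h'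
  have hr0 : r (g a) = 0 := by simpa [ha] using h2 0 h'.zero_mem (by simpa using hp)
  have hr' := ((hr.contDiffAt (hU.mem_nhds (ha ▸ hp))).differentiableAt (by simp)).hasFDerivAt
  have hf' : HasFDerivAt f (fderiv ℝ f u) (u + r (g a)) := by
    rw [hr0, add_zero]
    exact ((param_contDiffAt h hu).differentiableAt (by simp)).hasFDerivAt
  have h3 := hf'.comp a ((hr'.comp a hg).const_add u)
  have h4 := hg.unique (h3.congr_of_eventuallyEq (by
    filter_upwards [hS, hg.continuousAt.eventually (hU.mem_nhds (ha ▸ hp))] with b hb hb'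
    exact (h1 _ hb hb').symm))
  exact ⟨_, congrArg (fun A => A z) h4⟩

end Crest.Agent.R241.RG
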