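import Crest.Agent.R241.Geo.Proj
import Crest.Agent.R241.Geo.Model

/-! # Row 241, block I: Gauss lemma and Rauch comparison (helper57) -/

open Set Filter Topology
open Crest.GeometryTopology.Submanifold
open scoped ContDiff InnerProductSpace

noncomputable section

namespace Crest.Agent.R241.RG

variable {d N : ℕ} {σ : ℝ} {S : Set (Euc N)} {P : Euc N → Euc N →L[ℝ] Euc N} {p : Euc N}

/-- directional derivative of a two-parameter map -/
def dd (e : ℝ × ℝ) (α : ℝ × ℝ → Euc N) (q : ℝ × ℝ) : Euc N := fderiv ℝ α q e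

section dd

variable {α β : ℝ × ℝ → Euc N}

theorem dd_smooth (e : ℝ × ℝ) (hα : ContDiff ℝ ∞ α) : ContDiff ℝ ∞ (dd e α) :=
  (hα.fderiv_right (m := ∞) le_rfl).clm_apply contDiff_const

theorem dd_has (hα : ContDiff ℝ ∞ α) (q : ℝ × ℝ) : HasFDerivAt α (fderiv ℝ α q) q :=
  (hα.differentiable (by simp) q).hasFDerivAt

theorem dd_dd (hα : ContDiff ℝ ∞ α) (e e' q : ℝ × ℝ) :
    dd e (dd e' α) q = fderiv ℝ (fderiv ℝ α) q e e' := by
  have h1 := ((hα.fderiv_right (m := ∞) le_rfl).differentiable (by simp) q).hasFDerivAt.clm_apply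
    (hasFDerivAt_const e' q)
  have h2 : fderiv ℝ (dd e' α) q = _ := h1.fderiv
  rw [dd, h2]
  simp

theorem dd_comm (hα : ContDiff ℝ ∞ α) (e e' : ℝ × ℝ) : dd e (dd e' α) = dd e' (dd e α) := by
  funext q
  rw [dd_dd hα, dd_dd hα]
  exact ((contDiff_infty.1 hα 2).contDiffAt.isSymmSndFDerivAt (by simp)).eq e e'

theorem dd_t (hα : ContDiff ℝ ∞ α) (s t : ℝ) :
    HasDerivAt (fun t => α (s, t)) (dd (0, 1) α (s, t)) t :=
  (dd_has hα (s, t)).comp_hasDerivAt t ((hasDerivAt_const t s).prodMk (hasDerivAt_id t))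

theorem dd_s (hα : ContDiff ℝ ∞ α) (s t : ℝ) :
    HasDerivAt (fun s => α (s, t)) (dd (1, 0) α (s, t)) s :=
  (dd_has hα (s, t)).comp_hasDerivAt s ((hasDerivAt_id s).prodMk (hasDerivAt_const s t))

theorem dd_tang (h : TP d S P) (hα : ContDiff ℝ ∞ α) (hS : ∀ q, α q ∈ S) (e q : ℝ × ℝ) :
    P (α q) (dd e α q) = dd e α q :=
  h.tang (dd_has hα q) (Eventually.of_forall hS) e

theorem dd_field (h : TP d S P) (hα : ContDiff ℝ ∞ α) (hS : ∀ q, α q ∈ S) (e e' q : ℝ × ℝ) :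
    dd e (dd e' α) q = II P (α q) (dd e α q) (dd e' α q) + P (α q) (dd e (dd e' α) q) :=
  h.field (dd_has hα q) (dd_has (dd_smooth e' hα) q) (Eventually.of_forall (dd_tang h hα hS e')) e

theorem dd_geo (hα : ContDiff ℝ ∞ α) (hg : ∀ s, IsGeod S P fun t => α (s, t)) (q : ℝ × ℝ) :
    P (α q) (dd (0, 1) (dd (0, 1) α) q) = 0 := by
  obtain ⟨s, t⟩ := q
  have h1 : deriv (fun t => α (s, t)) = fun t => dd (0, 1) α (s, t) :=
    funext fun t => (dd_t hα s t).deriv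
  have := (hg s).eq t
  rwa [h1, (dd_t (dd_smooth _ hα) s t).deriv] at this

/-- the acceleration of the geodesics is orthogonal to tangent vectors -/
theorem dd_orth (h : TP d S P) (hα : ContDiff ℝ ∞ α) (hg : ∀ s, IsGeod S P fun t => α (s, t))
    (e q : ℝ × ℝ) : ⟪dd (0, 1) (dd (0, 1) α) q, dd e α q⟫_ℝ = 0 := by
  rw [← dd_tang h hα (fun q => (hg q.1).mem q.2) e q, ← h.symm, dd_geo hα hg, inner_zero_left]

/-- second variation -/
theorem dd_second (h : TP d S P) (hα : ContDiff ℝ ∞ α) (hg : ∀ s, IsGeod S P fun t => α (s, t))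
    (q : ℝ × ℝ) : ⟪dd (0, 1) (dd (0, 1) (dd (1, 0) α)) q, dd (1, 0) α q⟫_ℝ =
      -⟪II P (α q) (dd (0, 1) α q) (dd (0, 1) α q), II P (α q) (dd (1, 0) α q) (dd (1, 0) α q)⟫_ℝ := by
  obtain ⟨s, t⟩ := q
  have hS : ∀ q, α q ∈ S := fun q => (hg q.1).mem q.2
  have hT := dd_smooth (0, 1) hα
  have h1 := (dd_s (dd_smooth (0, 1) hT) s t).inner ℝ (dd_s (dd_smooth (1, 0) hα) s t)
  have h2 := h1.unique ((hasDerivAt_const s (0 : ℝ)).congr_of_eventuallyEq
    (Eventually.of_forall fun s => dd_orth h hα hg (1, 0) (s, t)))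
  rw [dd_comm hα (0, 1) (1, 0), dd_comm hT (0, 1) (1, 0)]
  have h3 := dd_field h hα hS (0, 1) (0, 1) (s, t)
  rw [dd_geo hα hg, add_zero] at h3
  rw [dd_field h hα hS (1, 0) (1, 0), inner_add_right, ← h.symm, dd_geo hα hg, inner_zero_left,
    add_zero, h3] at h2
  linarith

end dd

theorem IsGeod.speed (h : TP d S P) {c : ℝ → Euc N} (hc : IsGeod S P c) (t : ℝ) :
    ‖deriv c t‖ = ‖deriv c 0‖ := by
  have h1 : ∀ t, HasDerivAt (deriv c) (deriv (deriv c) t) t := fun t =>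
    ((hc.smooth.iterate_deriv 1).differentiable (by simp) t).hasDerivAt
  have h2 : ∀ t, P (c t) (deriv c t) = deriv c t := fun t => by
    simpa using h.tang (hc.smooth.differentiable (by simp) t).hasDerivAt.hasFDerivAt
      (Eventually.of_forall hc.mem) 1
  have h3 : ∀ t, HasDerivAt (fun t => ‖deriv c t‖ ^ 2) 0 t := fun t => by
    have := (h1 t).norm_sq
    rwa [← h2 t, h.symm, hc.eq, inner_zero_right, mul_zero] at this
  have h4 := is_const_of_deriv_eq_zero (fun t => (h3 t).differentiableAt) (fun t => (h3 t).deriv) t 0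
  exact (pow_left_inj₀ (norm_nonneg _) (norm_nonneg _) two_ne_zero).1 h4

variable {F : Euc d → Euc N}

theorem NC.has (hF : NC S P p F) (v : Euc d) : HasFDerivAt F (fderiv ℝ F v) v :=
  (hF.smooth.differentiable (by simp) v).hasFDerivAt

theorem NC.speed (h : TP d S P) (hF : NC S P p F) (t : ℝ) (v : Euc d) :
    ‖fderiv ℝ F (t • v) v‖ = ‖v‖ := by
  have h1 : ∀ t : ℝ, deriv (fun t : ℝ => F (t • v)) t = fderiv ℝ F (t • v) v := fun t => by
    have h0 : HasDerivAt (fun t : ℝ => t • v) v t := by simpa using (hasDerivAt_id t).smul_const v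
    exact ((hF.has (t • v)).comp_hasDerivAt t h0).deriv
  have := (hF.geod v).speed h t
  rwa [h1, h1, zero_smul, hF.iso] at this

/-- the radial variation -/
def var (F : Euc d → Euc N) (v w : Euc d) (q : ℝ × ℝ) : Euc N := F (q.2 • (v + q.1 • w))

theorem NC.var_smooth (hF : NC S P p F) (v w : Euc d) : ContDiff ℝ ∞ (var F v w) :=
  hF.smooth.comp (by fun_prop)

theorem NC.var_t (hF : NC S P p F) (v w : Euc d) (s t : ℝ) :
    dd (0, 1) (var F v w) (s, t) = fderiv ℝ F (t • (v + s • w)) (v + s • w) := by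
  refine (dd_t (hF.var_smooth v w) s t).unique ?_
  have h0 : HasDerivAt (fun t : ℝ => t • (v + s • w)) (v + s • w) t := by
    simpa only [one_smul, id] using (hasDerivAt_id t).smul_const (v + s • w)
  exact (hF.has (t • (v + s • w))).comp_hasDerivAt t h0

theorem NC.var_s (hF : NC S P p F) (v w : Euc d) (t : ℝ) :
    dd (1, 0) (var F v w) (0, t) = t • fderiv ℝ F (t • v) w := by
  refine (dd_s (hF.var_smooth v w) 0 t).unique ?_
  have h0 : HasDerivAt (fun s : ℝ => v + s • w) w 0 := by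
    simpa using ((hasDerivAt_id (0 : ℝ)).smul_const w).const_add v
  have h2 := (hF.has (t • (v + (0 : ℝ) • w))).comp_hasDerivAt 0 (h0.const_smul t)
  rw [zero_smul, add_zero, map_smul] at h2
  exact h2

theorem NC.var_gauss (h : TP d S P) (hF : NC S P p F) (v w : Euc d) (t : ℝ) :
    ⟪dd (0, 1) (var F v w) (0, t), dd (1, 0) (var F v w) (0, t)⟫_ℝ = t * ⟪v, w⟫_ℝ := by
  have hα := hF.var_smooth v w
  have hg : ∀ s, IsGeod S P fun t => var F v w (s, t) := fun s => hF.geod (v + s • w)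
  have h1 : ∀ t : ℝ, HasDerivAt (fun t => ⟪dd (0, 1) (var F v w) (0, t),
      dd (1, 0) (var F v w) (0, t)⟫_ℝ - t * ⟪v, w⟫_ℝ) 0 t := by
    intro t
    have h2 := ((dd_t (dd_smooth (0, 1) hα) 0 t).inner ℝ (dd_t (dd_smooth (1, 0) hα) 0 t)).sub
      ((hasDerivAt_id t).mul_const ⟪v, w⟫_ℝ)
    have h3 : HasDerivAt (fun s : ℝ => v + s • w) w 0 := by
      simpa using ((hasDerivAt_id (0 : ℝ)).smul_const w).const_add v
    have h4 := (dd_s (dd_smooth (0, 1) hα) 0 t).norm_sq.unique (h3.norm_sq.congr_of_eventuallyEq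
      (Eventually.of_forall fun s => by simp only [hF.var_t, hF.speed h]))
    rw [dd_orth h hα hg, dd_comm hα (0, 1) (1, 0)] at h2
    simp only [zero_smul, add_zero] at h4
    exact h2.congr_deriv (by linarith)
  have h2 := is_const_of_deriv_eq_zero (fun t => (h1 t).differentiableAt) (fun t => (h1 t).deriv) t 0
  simp only [hF.var_s v w 0, zero_smul, inner_zero_right, zero_mul, sub_zero] at h2
  linarith

theorem NC.gauss (h : TP d S P) (hF : NC S P p F) (v w : Euc d) :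
    ⟪fderiv ℝ F v v, fderiv ℝ F v w⟫_ℝ = ⟪v, w⟫_ℝ := by
  simpa [hF.var_t, hF.var_s] using hF.var_gauss h v w 1

theorem NC.rauch_unit (hσ : 0 ≤ σ) (h : TP d S P) (hK : Sec σ S P) (hF : NC S P p F) {v w : Euc d}
    (hv : ‖v‖ = 1) (hvw : ⟪v, w⟫_ℝ = 0) {t : ℝ} (ht : 0 ≤ t) :
    sn σ t ^ 2 * ‖w‖ ^ 2 ≤ t ^ 2 * ‖fderiv ℝ F (t • v) w‖ ^ 2 := by
  have hα := hF.var_smooth v w
  have hg : ∀ s, IsGeod S P fun t => var F v w (s, t) := fun s => hF.geod (v + s • w)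
  have hS : ∀ q, var F v w q ∈ S := fun q => hF.mem _
  set α := var F v w with hαdef
  have hJ := dd_smooth (1, 0) hα
  have hJ1 := dd_smooth (0, 1) hJ
  have hc : ∀ {β : ℝ × ℝ → Euc N}, ContDiff ℝ ∞ β → Continuous fun t : ℝ => β (0, t) :=
    fun hβ => hβ.continuous.comp (by fun_prop)
  have hgy : ∀ t : ℝ, ‖dd (1, 0) α (0, t)‖ ^ 2 = t ^ 2 * ‖fderiv ℝ F (t • v) w‖ ^ 2 := fun t => by
    rw [hF.var_s, norm_smul, mul_pow, Real.norm_eq_abs, sq_abs]
  have key := rauch_ode hσ (g := fun t => ‖dd (1, 0) α (0, t)‖ ^ 2)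
    (q := fun t => ‖P (α (0, t)) (dd (0, 1) (dd (1, 0) α) (0, t))‖ ^ 2)
    (y := fun t => ‖fderiv ℝ F (t • v) w‖ ^ 2) (fun t => (dd_t hJ 0 t).norm_sq)
    (fun t => ((dd_t hJ 0 t).inner ℝ (dd_t hJ1 0 t)).const_mul 2)
    (((h.smooth.continuous.comp (hc hα)).clm_apply (hc hJ1)).norm.pow 2) (fun t => sq_nonneg _)
    ((((hF.smooth.continuous_fderiv (by simp)).comp (by fun_prop)).clm_apply
      continuous_const).norm.pow 2) (fun t => sq_nonneg _) hgy (fun t => ?_) (fun t => ?_) ht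
  · rwa [zero_smul, hF.iso, hgy] at key
  · have h1 := abs_real_inner_le_norm (dd (1, 0) α (0, t))
      (P (α (0, t)) (dd (0, 1) (dd (1, 0) α) (0, t)))
    rw [← h.symm, dd_tang h hα hS] at h1
    have h2 := pow_le_pow_left₀ (abs_nonneg _) h1 2
    rw [sq_abs] at h2
    nlinarith
  · have hT := dd_tang h hα hS (0, 1) (0, t)
    have hJt := dd_tang h hα hS (1, 0) (0, t)
    have h1 := hK _ (hS (0, t)) _ _ hT hJt
    have h2 : ‖dd (0, 1) α (0, t)‖ = 1 := by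
      rw [hF.var_t, hF.speed h]
      simpa using hv
    rw [hF.var_gauss h, hvw, h2, ← neg_eq_iff_eq_neg.2 (dd_second h hα hg (0, t))] at h1
    have h3 : ‖dd (0, 1) (dd (1, 0) α) (0, t)‖ ^ 2
        = ‖II P (α (0, t)) (dd (0, 1) α (0, t)) (dd (1, 0) α (0, t))‖ ^ 2
          + ‖P (α (0, t)) (dd (0, 1) (dd (1, 0) α) (0, t))‖ ^ 2 := by
      conv_lhs => rw [dd_field h hα hS (0, 1) (1, 0) (0, t)]
      rw [norm_add_sq_real, ← h.symm, h.nrm (hS _) hT hJt, inner_zero_left]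
      ring
    rw [real_inner_self_eq_norm_sq, real_inner_comm, h3]
    nlinarith

theorem NC.rauch (hσ : 0 ≤ σ) (h : TP d S P) (hK : Sec σ S P) (hF : NC S P p F) (v u : Euc d) :
    gm σ v u ≤ ‖fderiv ℝ F v u‖ ^ 2 := by
  by_cases hv : v = 0
  · subst hv
    simp [gm, sr, hF.iso]
  have hr : 0 < ‖v‖ := norm_pos_iff.2 hv
  obtain ⟨a, ha⟩ : ∃ a : ℝ, a = ⟪u, v⟫_ℝ / ‖v‖ ^ 2 := ⟨_, rfl⟩
  obtain ⟨w, hw⟩ : ∃ w, w = u - a • v := ⟨_, rfl⟩
  have hvw : ⟪v, w⟫_ℝ = 0 := by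
    rw [hw, inner_sub_right, inner_smul_right, real_inner_self_eq_norm_sq, ha, real_inner_comm]
    field_simp
    ring
  have hu : u = a • v + w := by rw [hw]; abel
  have h1 := hF.rauch_unit hσ h hK (v := ‖v‖⁻¹ • v) (w := w) (by simp [norm_smul, hr.ne'])
    (by rw [inner_smul_left, hvw, mul_zero]) hr.le
  rw [smul_inv_smul₀ hr.ne', ← sr_mul, mul_pow] at h1
  have h2 : sr σ ‖v‖ ^ 2 * ‖w‖ ^ 2 ≤ ‖fderiv ℝ F v w‖ ^ 2 :=
    le_of_mul_le_mul_left (a := ‖v‖ ^ 2) (by linarith) (by positivity)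
  have h3 : ‖fderiv ℝ F v v‖ = ‖v‖ := by simpa using hF.speed h 1 v
  have h4 : ‖fderiv ℝ F v u‖ ^ 2 = a ^ 2 * ‖v‖ ^ 2 + ‖fderiv ℝ F v w‖ ^ 2 := by
    conv_lhs => rw [hu]
    rw [map_add, map_smul, norm_add_sq_real, inner_smul_left, hF.gauss h, hvw, norm_smul, h3,
      mul_pow, Real.norm_eq_abs, sq_abs]
    simp
  have h5 : ‖u‖ ^ 2 = a ^ 2 * ‖v‖ ^ 2 + ‖w‖ ^ 2 := by
    conv_lhs => rw [hu]
    rw [norm_add_sq_real, inner_smul_left, hvw, norm_smul, mul_pow, Real.norm_eq_abs, sq_abs]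
    simp
  have h6 : ⟪u, v⟫_ℝ ^ 2 / ‖v‖ ^ 2 = a ^ 2 * ‖v‖ ^ 2 := by
    rw [ha]
    field_simp
  rw [gm, h6, h4, h5, add_sub_cancel_left]
  linarith

end Crest.Agent.R241.RG
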